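import Vale.Agent.P329.H962.Rows

/-! Row E: regrouping. -/

namespace Vale.Agent.P329.H962.H425

open H259 (pw pw_zero pw_succ pw_one pw_add pw_succ' pw_mul pw_length)

variable {α : Type} {p : ℕ}

theorem rgG_nil (w f : List α → ZMod p) : rgG w f [] = 0 := rfl

theorem rgG_cut {w f : List α → ZMod p} {a : α} {X : List α} (h : w (a :: X) ≠ 0) :
    rgG w f (a :: X) = 0 := by
  show (if w (a :: X) = 0 then rgG w f X + f (a :: X) else 0) = 0
  rw [if_neg h]

theorem rgG_unc {w f : List α → ZMod p} {a : α} {X : List α} (h : w (a :: X) = 0) :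
    rgG w f (a :: X) = rgG w f X + f (a :: X) := by
  show (if w (a :: X) = 0 then rgG w f X + f (a :: X) else 0) = _
  rw [if_pos h]

theorem rgg_cut {w f : List α → ZMod p} {a : α} {X : List α} (h : w (a :: X) ≠ 0) :
    rgg w f (a :: X) = rgG w f X + f (a :: X) := by
  show (if w (a :: X) = 0 then 0 else rgG w f X + f (a :: X)) = _
  rw [if_neg h]

theorem rgg_unc {w f : List α → ZMod p} {a : α} {X : List α} (h : w (a :: X) = 0) :
    rgg w f (a :: X) = 0 := by
  show (if w (a :: X) = 0 then 0 else rgG w f X + f (a :: X)) = 0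
  rw [if_pos h]

/-- The identity. -/
theorem N_eq (w f : List α → ZMod p) : ∀ X, N f X = N (rgg w f) X + rgG w f X := by
  intro X
  induction X with
  | nil => show (0 : ZMod p) = 0 + 0; simp
  | cons a X ih =>
    show N f X + f (a :: X) = N (rgg w f) X + rgg w f (a :: X) + rgG w f (a :: X)
    rw [ih]
    by_cases h : w (a :: X) = 0
    · rw [rgg_unc h, rgG_unc h]; ring
    · rw [rgg_cut h, rgG_cut h]; ring

/-- After a cut the sum is zero. -/
theorem rgG_zero {w f : List α → ZMod p} {c : List α} (h : w c ≠ 0) : rgG w f c = 0 := by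
  cases c with
  | nil => rfl
  | cons a X => exact rgG_cut h

/-- the future of `rgG` -/
theorem rgG_cong {w f : List α → ZMod p} {X X' : List α}
    (hw : ∀ Y, w (Y ++ X) = w (Y ++ X')) (hf : ∀ Y, f (Y ++ X) = f (Y ++ X'))
    (h : rgG w f X = rgG w f X') (Y : List α) : rgG w f (Y ++ X) = rgG w f (Y ++ X') := by
  induction Y with
  | nil => exact h
  | cons a Y ih =>
    have h1 : w (a :: (Y ++ X)) = w (a :: (Y ++ X')) := hw (a :: Y)
    have h2 : f (a :: (Y ++ X)) = f (a :: (Y ++ X')) := hf (a :: Y)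
    by_cases h0 : w (a :: (Y ++ X)) = 0
    · have h0' : w (a :: (Y ++ X')) = 0 := by rw [← h1]; exact h0
      show rgG w f (a :: (Y ++ X)) = rgG w f (a :: (Y ++ X'))
      rw [rgG_unc h0, rgG_unc h0', ih, h2]
    · have h0' : w (a :: (Y ++ X')) ≠ 0 := by rw [← h1]; exact h0
      show rgG w f (a :: (Y ++ X)) = rgG w f (a :: (Y ++ X'))
      rw [rgG_cut h0, rgG_cut h0']

/-- the future of `rgg`, one letter or more ahead -/
theorem rgg_cong {w f : List α → ZMod p} {X X' : List α}
    (hw : ∀ Y, w (Y ++ X) = w (Y ++ X')) (hf : ∀ Y, f (Y ++ X) = f (Y ++ X'))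
    (h : rgG w f X = rgG w f X') (a : α) (Y : List α) :
    rgg w f (a :: (Y ++ X)) = rgg w f (a :: (Y ++ X')) := by
  have h1 : w (a :: (Y ++ X)) = w (a :: (Y ++ X')) := hw (a :: Y)
  have h2 : f (a :: (Y ++ X)) = f (a :: (Y ++ X')) := hf (a :: Y)
  by_cases h0 : w (a :: (Y ++ X)) = 0
  · have h0' : w (a :: (Y ++ X')) = 0 := by rw [← h1]; exact h0
    rw [rgg_unc h0, rgg_unc h0']
  · have h0' : w (a :: (Y ++ X')) ≠ 0 := by rw [← h1]; exact h0
    rw [rgg_cut h0, rgg_cut h0', h2, rgG_cong hw hf h]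

/-- finitely many residuals from a key with finite range -/
theorem fs_of_key {A K : Type} {G : List α → A} (key : List α → K) (hk : (Set.range key).Finite)
    (h : ∀ X X', key X = key X' → ∀ Y, G (Y ++ X) = G (Y ++ X')) : FS G := by
  classical
  have : (Set.range fun X : List α => fun Y : List α => G (Y ++ X)) ⊆
      (fun k : K => if hX : ∃ X, key X = k then (fun Y : List α => G (Y ++ hX.choose))
        else fun _ => G []) '' Set.range key := by
    rintro _ ⟨X, rfl⟩
    refine ⟨key X, ⟨X, rfl⟩, ?_⟩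
    have hX : ∃ X', key X' = key X := ⟨X, rfl⟩
    show (if hX : ∃ X', key X' = key X then (fun Y : List α => G (Y ++ hX.choose))
        else fun _ => G []) = _
    rw [dif_pos hX]
    funext Y
    exact h _ _ hX.choose_spec Y
  exact (hk.image _).subset this

theorem key_finite [Fact p.Prime] {w f : List α → ZMod p} (hw : FS w) (hf : FS f)
    {A : Type} [Finite A] (g : List α → A) :
    (Set.range fun X : List α => ((fun Y => w (Y ++ X), fun Y => f (Y ++ X), g X) :
      (List α → ZMod p) × (List α → ZMod p) × A)).Finite := by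
  have h3 : (Set.univ : Set A).Finite := Set.finite_univ
  refine (hw.prod (hf.prod h3)).subset ?_
  rintro _ ⟨X, rfl⟩
  exact ⟨⟨X, rfl⟩, ⟨X, rfl⟩, trivial⟩

theorem suf_append {B L1 L2 : List α} (h : B <:+ L1 ++ L2) :
    B <:+ L2 ∨ ∃ B', B = B' ++ L2 ∧ B' <:+ L1 := by
  obtain ⟨T, hT⟩ := h
  rcases List.append_eq_append_iff.1 hT with ⟨as, h1, h2⟩ | ⟨bs, h1, h2⟩
  · exact Or.inr ⟨as, h2, ⟨T, h1.symm⟩⟩
  · exact Or.inl ⟨bs, h2.symm⟩

/-- uncut stretches extend -/
theorem unc_succ {w : List α → ZMod p} {v : List α} {n0 : ℕ}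
    (h0 : ∀ n, n0 ≤ n → ∀ X Y, Unc w (pw v n) X →
      w (Y ++ (pw v n ++ X)) = w (Y ++ (pw v (n + 1) ++ X)))
    {n : ℕ} (hn : n0 + 1 ≤ n) {X : List α} (hU : Unc w (pw v n) X) : Unc w (pw v (n + 1)) X := by
  intro B hB hne
  rw [pw_succ] at hB
  obtain ⟨m, rfl⟩ : ∃ m, n = m + 1 := ⟨n - 1, by omega⟩
  rcases suf_append hB with h | ⟨B', rfl, hB'⟩
  · exact hU B h hne
  · by_cases hB0 : B' = []
    · subst hB0
      exact hU _ (List.suffix_refl _) hne
    have hUm : Unc w (pw v m) X := by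
      intro C hC hCne
      refine hU C ?_ hCne
      rw [pw_succ]
      exact List.suffix_append_of_suffix hC
    have h1 := h0 m (by omega) X B' hUm
    rw [List.append_assoc, ← h1, ← List.append_assoc]
    refine hU _ ?_ (by simp [hB0])
    rw [pw_succ]
    obtain ⟨T, hT⟩ := hB'
    exact ⟨T, by rw [← List.append_assoc, hT]⟩

theorem unc_mono {w : List α → ZMod p} {V V' X : List α} (h : V' <:+ V) (hU : Unc w V X) :
    Unc w V' X := fun B hB hne => hU B (hB.trans h) hne

/-- over an uncut word on which `f` vanishes nothing is added -/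
theorem rgG_unc_word {w f : List α → ZMod p} {X : List α} : ∀ V : List α, Unc w V X →
    (∀ B, B <:+ V → B ≠ [] → f (B ++ X) = 0) → rgG w f (V ++ X) = rgG w f X := by
  intro V
  induction V with
  | nil => intro _ _; rfl
  | cons a V ih =>
    intro hU hf
    have h1 : w (a :: (V ++ X)) = 0 := hU (a :: V) (List.suffix_refl _) (by simp)
    have h2 : f (a :: (V ++ X)) = 0 := hf (a :: V) (List.suffix_refl _) (by simp)
    show rgG w f (a :: (V ++ X)) = _
    rw [rgG_unc h1, h2, add_zero]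
    exact ih (unc_mono (List.suffix_cons a V) hU)
      (fun B hB hne => hf B (hB.trans (List.suffix_cons a V)) hne)

/-- far inside an uncut stretch `f` vanishes -/
theorem f_zero {w f : List α → ZMod p} {J : ℕ}
    (hJ : ∀ X, f X ≠ 0 → ∃ i ≤ J, w (X.drop i) ≠ 0) {V X : List α} (hU : Unc w V X)
    (hl : J < V.length) : f (V ++ X) = 0 := by
  by_contra hf
  obtain ⟨i, hi, hw⟩ := hJ _ hf
  apply hw
  rw [List.drop_append_of_le_length (by omega)]
  refine hU _ (List.drop_suffix i V) ?_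
  intro h
  have := congrArg List.length h
  rw [List.length_drop] at this
  simp at this
  omega

theorem pw_suffix {B v : List α} (hB : B <:+ v) (n : ℕ) : B ++ pw v n <:+ pw v (n + 1) := by
  rw [pw_succ]
  obtain ⟨T, hT⟩ := hB
  exact ⟨T, by rw [← List.append_assoc, hT]⟩

theorem pw_nil (n : ℕ) : pw ([] : List α) n = [] := by
  induction n with
  | zero => rfl
  | succ n ih => rw [pw_succ, ih]; rfl

/-- the value of `rgG` is the same over `v ^ n` and `v ^ (n + 1)` -/
theorem rgG_pw {w f : List α → ZMod p} {J : ℕ} (hJ : ∀ X, f X ≠ 0 → ∃ i ≤ J, w (X.drop i) ≠ 0)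
    {v : List α} {n0 : ℕ}
    (h0 : ∀ n, n0 ≤ n → ∀ X Y, Unc w (pw v n) X →
      w (Y ++ (pw v n ++ X)) = w (Y ++ (pw v (n + 1) ++ X)))
    {n : ℕ} (hn : n0 + 1 ≤ n) (hn' : J + 1 ≤ n) {X : List α} (hU : Unc w (pw v n) X) :
    rgG w f (pw v n ++ X) = rgG w f (pw v (n + 1) ++ X) := by
  by_cases hv : v = []
  · subst hv
    rw [pw_nil, pw_nil]
  have hvl : 1 ≤ v.length := List.length_pos_iff.2 hv
  have hU' := unc_succ h0 hn hU
  rw [pw_succ v n, List.append_assoc]
  refine (rgG_unc_word v ?_ ?_).symm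
  · intro B hB hne
    rw [← List.append_assoc]
    exact hU' _ (pw_suffix hB n) (by simp [hne])
  · intro B hB hne
    rw [← List.append_assoc]
    refine f_zero hJ (unc_mono (pw_suffix hB n) hU') ?_
    rw [List.length_append, pw_length]
    have : n * 1 ≤ n * v.length := Nat.mul_le_mul_left n hvl
    omega

theorem rgG_ap {w f : List α → ZMod p} (hw : AP w w) (hf : AP w f)
    (hJ : ∃ J, ∀ X, f X ≠ 0 → ∃ i ≤ J, w (X.drop i) ≠ 0) : AP w (rgG w f) := by
  intro v
  obtain ⟨J, hJ⟩ := hJ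
  obtain ⟨n0, h0⟩ := hw v
  obtain ⟨n1, h1⟩ := hf v
  refine ⟨n0 + n1 + J + 1, fun n hn X Y hU => ?_⟩
  exact rgG_cong (fun Y => h0 n (by omega) X Y hU) (fun Y => h1 n (by omega) X Y hU)
    (rgG_pw hJ h0 (by omega) (by omega) hU) Y

theorem rgg_ap {w f : List α → ZMod p} (hw : AP w w) (hf : AP w f)
    (hJ : ∃ J, ∀ X, f X ≠ 0 → ∃ i ≤ J, w (X.drop i) ≠ 0) : AP w (rgg w f) := by
  intro v
  obtain ⟨J, hJ⟩ := hJ
  obtain ⟨n0, h0⟩ := hw v
  obtain ⟨n1, h1⟩ := hf v
  refine ⟨n0 + n1 + J + 1, fun n hn X Y hU => ?_⟩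
  cases Y with
  | cons a Y =>
    exact rgg_cong (fun Y => h0 n (by omega) X Y hU) (fun Y => h1 n (by omega) X Y hU)
      (rgG_pw hJ h0 (by omega) (by omega) hU) a Y
  | nil =>
    show rgg w f (pw v n ++ X) = rgg w f (pw v (n + 1) ++ X)
    by_cases hv : v = []
    · subst hv
      rw [pw_nil, pw_nil]
    have key : ∀ m, 1 ≤ m → Unc w (pw v m) X → rgg w f (pw v m ++ X) = 0 := by
      intro m hm hUm
      have hne : pw v m ≠ [] := by
        intro h
        have h2 := congrArg List.length h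
        rw [pw_length, List.length_nil] at h2
        have hvl : 1 ≤ v.length := List.length_pos_iff.2 hv
        have : m * 1 ≤ m * v.length := Nat.mul_le_mul_left m hvl
        omega
      have hz : w (pw v m ++ X) = 0 := hUm _ (List.suffix_refl _) hne
      cases h : pw v m with
      | nil => exact absurd h hne
      | cons a V =>
        rw [h] at hz
        exact rgg_unc hz
    rw [key n (by omega) hU, key (n + 1) (by omega) (unc_succ h0 (by omega) hU)]

theorem rgG_mem {w f : List α → ZMod p} (hw : Rt w w) {m : ℕ} (hf : Mem w m f) :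
    Mem w m (rgG w f) := by
  intro c c' S hc hc'
  induction S with
  | nil =>
    intro _
    show rgG w f c = rgG w f c'
    rw [rgG_zero hc, rgG_zero hc']
  | cons a S ih =>
    intro hn
    have h1 : w (a :: (S ++ c)) = w (a :: (S ++ c')) := hw c c' (a :: S) hc hc' (by simp)
    have h2 : f (a :: (S ++ c)) = f (a :: (S ++ c')) := hf c c' (a :: S) hc hc' hn
    show rgG w f (a :: (S ++ c)) = rgG w f (a :: (S ++ c'))
    by_cases h0 : w (a :: (S ++ c)) = 0
    · have h0' : w (a :: (S ++ c')) = 0 := by rw [← h1]; exact h0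
      have hn' : m ≤ nc w S c := by
        have : nc w (a :: S) c = nc w S c + if w (a :: (S ++ c)) = 0 then 0 else 1 := rfl
        rw [this, if_pos h0] at hn
        exact hn
      rw [rgG_unc h0, rgG_unc h0', ih hn', h2]
    · have h0' : w (a :: (S ++ c')) ≠ 0 := by rw [← h1]; exact h0
      rw [rgG_cut h0, rgG_cut h0']

theorem rgg_mem {w f : List α → ZMod p} (hw : Rt w w) {m : ℕ} (hf : Mem w m f) :
    Mem w (m + 1) (rgg w f) := by
  intro c c' S hc hc' hn
  cases S with
  | nil =>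
    have : nc w [] c = 0 := rfl
    omega
  | cons a S =>
    have h1 : w (a :: (S ++ c)) = w (a :: (S ++ c')) := hw c c' (a :: S) hc hc' (by simp)
    have h2 : f (a :: (S ++ c)) = f (a :: (S ++ c')) := hf c c' (a :: S) hc hc' (by omega)
    have h3 : rgG w f (S ++ c) = rgG w f (S ++ c') := by
      refine rgG_mem hw hf c c' S hc hc' ?_
      have : nc w (a :: S) c = nc w S c + if w (a :: (S ++ c)) = 0 then 0 else 1 := rfl
      rw [this] at hn
      split_ifs at hn <;> omega
    show rgg w f (a :: (S ++ c)) = rgg w f (a :: (S ++ c'))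
    by_cases h0 : w (a :: (S ++ c)) = 0
    · have h0' : w (a :: (S ++ c')) = 0 := by rw [← h1]; exact h0
      rw [rgg_unc h0, rgg_unc h0']
    · have h0' : w (a :: (S ++ c')) ≠ 0 := by rw [← h1]; exact h0
      rw [rgg_cut h0, rgg_cut h0', h2, h3]

theorem rgG_fs [Fact p.Prime] {w f : List α → ZMod p} (hw : FS w) (hf : FS f) :
    FS (rgG w f) := by
  refine fs_of_key _ (key_finite hw hf (rgG w f)) ?_
  intro X X' h Y
  simp only [Prod.mk.injEq] at h
  exact rgG_cong (fun Y => congrFun h.1 Y) (fun Y => congrFun h.2.1 Y) h.2.2 Y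

theorem rgg_fs [Fact p.Prime] {w f : List α → ZMod p} (hw : FS w) (hf : FS f) :
    FS (rgg w f) := by
  refine fs_of_key _ (key_finite hw hf (fun X => (rgG w f X, rgg w f X))) ?_
  intro X X' h Y
  simp only [Prod.mk.injEq] at h
  cases Y with
  | nil => exact h.2.2.2
  | cons a Y => exact rgg_cong (fun Y => congrFun h.1 Y) (fun Y => congrFun h.2.1 Y) h.2.2.1 a Y

/-- **Row E.** -/
theorem rowE : RowE := by
  intro α p _ w f
  refine ⟨N_eq w f, ?_⟩
  rintro hS ⟨hfs, hap, m, hm⟩ hJ
  exact ⟨⟨rgG_fs hS.fs hfs, rgG_ap hS.ap hap hJ, m, rgG_mem hS.rt hm⟩,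
    ⟨rgg_fs hS.fs hfs, rgg_ap hS.ap hap hJ, m + 1, rgg_mem hS.rt hm⟩⟩

end Vale.Agent.P329.H962.H425
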